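import Vale.Agent.P070X.Defs

/-!
# P070X, module CHAR: a nonzero commutative C*-algebra has a nonzero star character

`exists_char` (`P070/CharEx.lean`) for the subalgebra `⊤` gives `χ`; `REG3_ext` extends it to a
quasi-state `φ` of `D` (so `φ = χ`), `Q_herm` gives the compatibility with star.
-/

open scoped ComplexOrder InnerProductSpace

namespace Vale.Agent.P070X

open Vale.Agent.P070

universe u

theorem exists_starChar (D : Type u) [NonUnitalCStarAlgebra D] [Nontrivial D]
    (hD : ∀ x y : D, x * y = y * x) : ∃ ω : D →⋆ₙₐ[ℂ] ℂ, ∃ x, ω x ≠ 0 := by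
  let _ : NonUnitalCommCStarAlgebra D :=
    { (inferInstance : NonUnitalCStarAlgebra D) with
      mul_comm := hD }
  obtain ⟨x, hx0⟩ := exists_ne (0 : D)
  let a : Unitization ℂ D := Unitization.inr x
  have ha : star a * a ≠ 0 := by
    rw [Ne, CStarRing.star_mul_self_eq_zero_iff]
    intro h
    exact hx0 (Unitization.inr_injective (R := ℂ) (h.trans (Unitization.inr_zero ℂ).symm))
  obtain ⟨φ, hφ⟩ : ∃ φ : WeakDual.characterSpace ℂ (Unitization ℂ D), φ (star a * a) ≠ 0 := by
    by_contra hcon
    push Not at hcon
    apply ha
    apply (gelfandTransform_isometry (Unitization ℂ D)).injective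
    ext φ
    rw [map_zero]
    exact hcon φ
  refine ⟨{ toFun := fun d => φ (Unitization.inr d)
            map_smul' := ?_
            map_zero' := ?_
            map_add' := ?_
            map_mul' := ?_
            map_star' := ?_ }, x, ?_⟩
  · intro r b
    show φ (Unitization.inr (r • b)) = r • φ (Unitization.inr b)
    rw [← map_smul, ← Unitization.inr_smul]
  · show φ (Unitization.inr (0 : D)) = 0
    rw [Unitization.inr_zero, map_zero]
  · intro b c
    show φ (Unitization.inr (b + c)) = φ (Unitization.inr b) + φ (Unitization.inr c)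
    rw [← map_add, ← Unitization.inr_add]
  · intro b c
    show φ (Unitization.inr (b * c)) = φ (Unitization.inr b) * φ (Unitization.inr c)
    rw [← map_mul, ← Unitization.inr_mul]
  · intro b
    show φ (Unitization.inr (star b)) = star (φ (Unitization.inr b))
    rw [← map_star, ← Unitization.inr_star]
  · show φ (Unitization.inr x) ≠ 0
    intro h
    apply hφ
    rw [map_mul]
    exact mul_eq_zero_of_right _ h

end Vale.Agent.P070X
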