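import Vale.Agent.P070.Final

/-!
# P070X: full crossed products of commutative C*-algebras by discrete groups (definitions)
-/

open scoped ComplexOrder InnerProductSpace

namespace Vale.Agent.P070X

open Vale.Agent.P070

universe u v

variable {D : Type u} [NonUnitalCStarAlgebra D] {G : Type v} [Group G]

/-- A covariant representation of `(D, G, α)` on the Hilbert space `K`. -/
structure CovRep (α : G →* (D ≃⋆ₐ[ℂ] D)) (K : Type u) [NormedAddCommGroup K]
    [InnerProductSpace ℂ K] [CompleteSpace K] where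
  ρ : D →⋆ₙₐ[ℂ] (K →L[ℂ] K)
  V : G → (K →L[ℂ] K)
  V_one : V 1 = 1
  V_mul : ∀ g h, V (g * h) = V g * V h
  V_star : ∀ g, star (V g) = V g⁻¹
  cov : ∀ g d, V g * ρ d = ρ (α g d) * V g

/-- a covariant representation with its Hilbert space -/
structure BRep (α : G →* (D ≃⋆ₐ[ℂ] D)) where
  K : Type u
  [nacg : NormedAddCommGroup K]
  [ips : InnerProductSpace ℂ K]
  [cs : CompleteSpace K]
  C : CovRep α K

attribute [instance] BRep.nacg BRep.ips BRep.cs

/-- the covariant representation `C` comes from a representation of `A` (`j g d` is `d u_g`) -/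
def Integrates {α : G →* (D ≃⋆ₐ[ℂ] D)} {K : Type u} [NormedAddCommGroup K]
    [InnerProductSpace ℂ K] [CompleteSpace K] {A : Type u} [NonUnitalCStarAlgebra A]
    (j : G → D →ₗ[ℂ] A) (C : CovRep α K) : Prop :=
  ∃ P : A →⋆ₙₐ[ℂ] (K →L[ℂ] K), ∀ g d, P (j g d) = C.ρ d * C.V g

/-- `A` is the full crossed product of `D` by `G` (`j g d` is the element `d u_g`). -/
structure FullCrossed (α : G →* (D ≃⋆ₐ[ℂ] D)) (A : Type u) [NonUnitalCStarAlgebra A] where
  j : G → D →ₗ[ℂ] A
  mul : ∀ g h d d', j g d * j h d' = j (g * h) (d * α g d')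
  star_j : ∀ g d, star (j g d) = j g⁻¹ (α g⁻¹ (star d))
  dense : Dense (Submodule.span ℂ {a : A | ∃ g d, a = j g d} : Set A)
  univ : ∀ R : BRep α, Integrates j R.C

end Vale.Agent.P070X
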