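import Vale.Agent.P070X.Defs

/-!
# P070X, module ELL: the covariant representation on `ℓ²(X)`, `X` the set of characters of `D`

`K = lp (fun _ : (D →⋆ₙₐ[ℂ] ℂ) => ℂ) 2`, `(ρ d x) f = f d * x f` (bounded by `‖d‖`,
`NonUnitalStarAlgHom.norm_apply_le`), `(V g x) f = x (f ∘ α g)` (composition with a bijection of `X`
preserves the norm).  `V g (δ_f) = δ_{f ∘ α g⁻¹}`.  With `δ = lp.single 2 ω 1`:
`⟪δ, ρ d (V g δ)⟫ = ω d` if `ω ∘ α g⁻¹ = ω`, and for `g = 1` always `⟪δ, ρ d δ⟫ = ω d`.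
`G : Type v` may be in another universe, `K : Type u`.
-/

open scoped ComplexOrder InnerProductSpace

namespace Vale.Agent.P070X

open Vale.Agent.P070

universe u v

theorem ELL_mem {X : Type u} (m : X → ℂ) (s : X ≃ X) (C : ℝ) (hm : ∀ f, ‖m f‖ ≤ C)
    (x : lp (fun _ : X => ℂ) 2) : Memℓp (fun f => m f * x (s f)) 2 := by
  have h2 : (0 : ℝ) < (2 : ENNReal).toReal := by norm_num
  rw [memℓp_gen_iff h2]
  have hx := (memℓp_gen_iff h2).1 (lp.memℓp x)
  have hx' : Summable fun f => ‖x (s f)‖ ^ (2 : ENNReal).toReal := s.summable_iff.2 hx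
  refine Summable.of_nonneg_of_le (fun f => by positivity) (fun f => ?_)
    (hx'.mul_left (|C| ^ (2 : ENNReal).toReal))
  rw [norm_mul, Real.mul_rpow (norm_nonneg _) (norm_nonneg _)]
  refine mul_le_mul_of_nonneg_right ?_ (by positivity)
  exact Real.rpow_le_rpow (norm_nonneg _) ((hm f).trans (le_abs_self C)) h2.le

theorem ELL_norm {X : Type u} (m : X → ℂ) (s : X ≃ X) (C : ℝ) (hm : ∀ f, ‖m f‖ ≤ C)
    (x : lp (fun _ : X => ℂ) 2) :
    ‖(⟨fun f => m f * x (s f), ELL_mem m s C hm x⟩ : lp (fun _ : X => ℂ) 2)‖ ≤ |C| * ‖x‖ := by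
  have h2 : (0 : ℝ) < (2 : ENNReal).toReal := by norm_num
  have hx := (memℓp_gen_iff h2).1 (lp.memℓp x)
  have hx' : Summable fun f => ‖x (s f)‖ ^ (2 : ENNReal).toReal := s.summable_iff.2 hx
  have hT : Summable fun f => ‖m f * x (s f)‖ ^ (2 : ENNReal).toReal :=
    (memℓp_gen_iff h2).1 (ELL_mem m s C hm x)
  have e1 : ∑' f, ‖x (s f)‖ ^ (2 : ENNReal).toReal = ‖x‖ ^ (2 : ENNReal).toReal := by
    rw [lp.norm_rpow_eq_tsum h2]
    exact s.tsum_eq (fun i => ‖x i‖ ^ (2 : ENNReal).toReal)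
  have e2 : ∑' f, ‖m f * x (s f)‖ ^ (2 : ENNReal).toReal ≤
      ∑' f, |C| ^ (2 : ENNReal).toReal * ‖x (s f)‖ ^ (2 : ENNReal).toReal := by
    refine Summable.tsum_le_tsum (fun f => ?_) hT (hx'.mul_left _)
    rw [norm_mul, Real.mul_rpow (norm_nonneg _) (norm_nonneg _)]
    refine mul_le_mul_of_nonneg_right ?_ (by positivity)
    exact Real.rpow_le_rpow (norm_nonneg _) ((hm f).trans (le_abs_self C)) h2.le
  rw [tsum_mul_left, e1, ← Real.mul_rpow (abs_nonneg _) (norm_nonneg _)] at e2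
  exact lp.norm_le_of_tsum_le h2 (by positivity) e2

/-- weighted composition operator on `ℓ²(X)` -/
noncomputable def ELLop {X : Type u} (m : X → ℂ) (s : X ≃ X) (C : ℝ) (hm : ∀ f, ‖m f‖ ≤ C) :
    lp (fun _ : X => ℂ) 2 →L[ℂ] lp (fun _ : X => ℂ) 2 :=
  LinearMap.mkContinuous
    { toFun := fun x => ⟨fun f => m f * x (s f), ELL_mem m s C hm x⟩
      map_add' := by
        intro x y
        apply lp.ext
        funext f
        change m f * (x + y) (s f) = m f * x (s f) + m f * y (s f)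
        rw [lp.coeFn_add, Pi.add_apply, mul_add]
      map_smul' := by
        intro c x
        apply lp.ext
        funext f
        change m f * (c • x) (s f) = c * (m f * x (s f))
        rw [lp.coeFn_smul, Pi.smul_apply, smul_eq_mul]
        ring } |C| (ELL_norm m s C hm)

theorem ELLop_apply {X : Type u} (m : X → ℂ) (s : X ≃ X) (C : ℝ) (hm : ∀ f, ‖m f‖ ≤ C)
    (x : lp (fun _ : X => ℂ) 2) (f : X) : ELLop m s C hm x f = m f * x (s f) := rfl

theorem ELLop_adj {X : Type u} (m m' : X → ℂ) (s s' : X ≃ X) (C C' : ℝ) (hm : ∀ f, ‖m f‖ ≤ C)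
    (hm' : ∀ f, ‖m' f‖ ≤ C') (hs : ∀ f, s (s' f) = f)
    (hmm : ∀ f, m' f = star (m (s' f))) :
    star (ELLop m s C hm) = ELLop m' s' C' hm' := by
  rw [ContinuousLinearMap.star_eq_adjoint, eq_comm, ContinuousLinearMap.eq_adjoint_iff]
  intro x y
  rw [lp.inner_eq_tsum, lp.inner_eq_tsum, ← s'.tsum_eq (fun i => ⟪x i, (ELLop m s C hm y) i⟫_ℂ)]
  refine tsum_congr fun f => ?_
  rw [ELLop_apply, ELLop_apply, hs, hmm]
  simp only [RCLike.inner_apply, map_mul, RCLike.star_def, RCLike.conj_conj]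
  ring

section

variable {D : Type u} [NonUnitalCStarAlgebra D]

/-- composition of a character with an automorphism -/
def ELLcomp (e : D ≃⋆ₐ[ℂ] D) (f : D →⋆ₙₐ[ℂ] ℂ) : D →⋆ₙₐ[ℂ] ℂ where
  toFun := fun x => f (e x)
  map_smul' := by intro c x; simp
  map_zero' := by simp
  map_add' := by intro x y; simp
  map_mul' := by intro x y; simp
  map_star' := by intro x; simp [map_star]

theorem ELLcomp_apply (e : D ≃⋆ₐ[ℂ] D) (f : D →⋆ₙₐ[ℂ] ℂ) (x : D) : ELLcomp e f x = f (e x) := rfl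

/-- composition as a permutation of the characters -/
def ELLperm (e : D ≃⋆ₐ[ℂ] D) : (D →⋆ₙₐ[ℂ] ℂ) ≃ (D →⋆ₙₐ[ℂ] ℂ) where
  toFun := ELLcomp e
  invFun := ELLcomp e.symm
  left_inv := by
    intro f
    ext x
    rw [ELLcomp_apply, ELLcomp_apply, StarAlgEquiv.apply_symm_apply]
  right_inv := by
    intro f
    ext x
    rw [ELLcomp_apply, ELLcomp_apply, StarAlgEquiv.symm_apply_apply]

theorem ELLperm_apply (e : D ≃⋆ₐ[ℂ] D) (f : D →⋆ₙₐ[ℂ] ℂ) (x : D) :
    ELLperm e f x = f (e x) := rfl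

/-- the diagonal representation -/
noncomputable def ELLrho : D →⋆ₙₐ[ℂ] (lp (fun _ : (D →⋆ₙₐ[ℂ] ℂ) => ℂ) 2 →L[ℂ]
    lp (fun _ : (D →⋆ₙₐ[ℂ] ℂ) => ℂ) 2) where
  toFun := fun d => ELLop (fun f => f d) (Equiv.refl _) ‖d‖
    (fun f => NonUnitalStarAlgHom.norm_apply_le f d)
  map_smul' := by
    intro c d
    ext x f
    simp only [ELLop_apply, ContinuousLinearMap.smul_apply, lp.coeFn_smul, Pi.smul_apply,
      MonoidHom.id_apply, map_smul, smul_eq_mul]
    ring
  map_zero' := by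
    ext x f
    simp only [ELLop_apply, map_zero, zero_mul, ContinuousLinearMap.zero_apply, lp.coeFn_zero,
      Pi.zero_apply]
  map_add' := by
    intro c d
    ext x f
    simp only [ELLop_apply, ContinuousLinearMap.add_apply, lp.coeFn_add, Pi.add_apply, map_add,
      add_mul]
  map_mul' := by
    intro c d
    ext x f
    simp only [ELLop_apply, ContinuousLinearMap.mul_apply, map_mul, Equiv.refl_apply]
    ring
  map_star' := by
    intro d
    exact (ELLop_adj _ _ _ _ _ _ _ _ (fun f => rfl) (fun f => map_star f d)).symm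

end

variable {D : Type u} [NonUnitalCStarAlgebra D] {G : Type v} [Group G]

theorem ell (α : G →* (D ≃⋆ₐ[ℂ] D)) (ω : D →⋆ₙₐ[ℂ] ℂ) :
    ∃ (K : Type u) (_ : NormedAddCommGroup K) (_ : InnerProductSpace ℂ K)
      (_ : CompleteSpace K) (C : CovRep α K) (δ : K), ‖δ‖ = 1 ∧
      ∀ g, (∀ x, ω (α g⁻¹ x) = ω x) → ∀ d, ⟪δ, C.ρ d (C.V g δ)⟫_ℂ = ω d := by
  classical
  have hone : ∀ f : (D →⋆ₙₐ[ℂ] ℂ), ‖(1 : ℂ)‖ ≤ 1 := fun _ => by simp
  have hcomp : ∀ g h : G, ∀ x, α g (α h x) = α (g * h) x := by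
    intro g h x
    rw [map_mul]
    rfl
  have hc1 : ∀ g : G, ∀ x, α g (α g⁻¹ x) = x := by
    intro g x
    rw [hcomp, mul_inv_cancel, map_one]
    rfl
  have hc2 : ∀ g : G, ∀ x, α g⁻¹ (α g x) = x := by
    intro g x
    rw [hcomp, inv_mul_cancel, map_one]
    rfl
  let V : G → (lp (fun _ : (D →⋆ₙₐ[ℂ] ℂ) => ℂ) 2 →L[ℂ] lp (fun _ : (D →⋆ₙₐ[ℂ] ℂ) => ℂ) 2) :=
    fun g => ELLop (fun _ => 1) (ELLperm (α g)) 1 hone
  have hV : ∀ g x f, V g x f = x (ELLperm (α g) f) := by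
    intro g x f
    change (1 : ℂ) * x (ELLperm (α g) f) = _
    rw [one_mul]
  let C : CovRep α (lp (fun _ : (D →⋆ₙₐ[ℂ] ℂ) => ℂ) 2) :=
    { ρ := ELLrho
      V := V
      V_one := by
        ext x f
        rw [hV]
        have : ELLperm (α 1) f = f := by
          ext y
          rw [ELLperm_apply, map_one]
          rfl
        rw [this]
        rfl
      V_mul := by
        intro g h
        ext x f
        rw [ContinuousLinearMap.mul_apply, hV, hV, hV]
        have : ELLperm (α (g * h)) f = ELLperm (α h) (ELLperm (α g) f) := by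
          ext y
          rw [ELLperm_apply, ELLperm_apply, ELLperm_apply, hcomp]
        rw [this]
      V_star := by
        intro g
        refine ELLop_adj _ _ _ _ _ _ _ _ (fun f => ?_) (fun f => ?_)
        · ext y
          rw [ELLperm_apply, ELLperm_apply, hc2]
        · simp
      cov := by
        intro g d
        ext x f
        rw [ContinuousLinearMap.mul_apply, ContinuousLinearMap.mul_apply, hV]
        change (ELLperm (α g) f) d * x (ELLperm (α g) f) = f (α g d) * V g x f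
        rw [hV, ELLperm_apply] }
  refine ⟨lp (fun _ : (D →⋆ₙₐ[ℂ] ℂ) => ℂ) 2, inferInstance, inferInstance, inferInstance, C,
    lp.single 2 ω 1, ?_, ?_⟩
  · rw [lp.norm_single (by norm_num)]
    simp
  · intro g hg d
    rw [lp.inner_single_left]
    have h1 : (C.ρ d (C.V g (lp.single 2 ω (1 : ℂ)))) ω =
        ω d * (V g (lp.single 2 ω (1 : ℂ))) ω := rfl
    have h2 : ELLperm (α g) ω = ω := by
      ext y
      rw [ELLperm_apply, ← hg, hc2]
    rw [h1, hV, h2]
    simp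

end Vale.Agent.P070X
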