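import Vale.Agent.P070X.Defs

/-!
# P070X, module SUB: the copy of `D` in `A` and its normalisers `j g d`

`n = j g d`: `n* n = j 1 (α g⁻¹ (d* d))`, `n n* = j 1 (d d*)`, `n* (j 1 x) n = j 1 (α g⁻¹ (d* x d))`,
`n (j 1 x) n* = j 1 (d α g x d*)`.
-/

open scoped ComplexOrder InnerProductSpace

namespace Vale.Agent.P070X

open Vale.Agent.P070

universe u v

variable {D : Type u} [NonUnitalCStarAlgebra D] {G : Type v} [Group G]
variable {α : G →* (D ≃⋆ₐ[ℂ] D)} {A : Type u} [NonUnitalCStarAlgebra A]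

/-- the copy `j 1 D` of `D` in `A` -/
def sub (F : FullCrossed α A) : NonUnitalStarSubalgebra ℂ A where
  carrier := {a | ∃ d, a = F.j 1 d}
  add_mem' := by
    rintro _ _ ⟨d, rfl⟩ ⟨d', rfl⟩
    exact ⟨d + d', (map_add _ _ _).symm⟩
  zero_mem' := ⟨0, (map_zero _).symm⟩
  smul_mem' := by
    rintro c _ ⟨d, rfl⟩
    exact ⟨c • d, (map_smul _ _ _).symm⟩
  mul_mem' := by
    rintro _ _ ⟨d, rfl⟩ ⟨d', rfl⟩
    refine ⟨d * d', ?_⟩
    rw [F.mul, mul_one, map_one]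
    rfl
  star_mem' := by
    rintro _ ⟨d, rfl⟩
    refine ⟨star d, ?_⟩
    rw [F.star_j, inv_one, map_one]
    rfl

theorem mem_sub (F : FullCrossed α A) {a : A} : a ∈ sub F ↔ ∃ d, a = F.j 1 d := Iff.rfl

theorem star_j_mul_j (F : FullCrossed α A) (g : G) (d : D) :
    star (F.j g d) * F.j g d = F.j 1 (α g⁻¹ (star d * d)) := by
  rw [F.star_j, F.mul, inv_mul_cancel, map_mul (α g⁻¹)]

theorem star_j_mul_mul_j (F : FullCrossed α A) (g : G) (d x : D) :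
    star (F.j g d) * F.j 1 x * F.j g d = F.j 1 (α g⁻¹ (star d * x * d)) := by
  rw [F.star_j, F.mul, F.mul, mul_one, inv_mul_cancel, map_mul (α g⁻¹), map_mul (α g⁻¹)]

theorem sub_comm (F : FullCrossed α A) (hD : ∀ x y : D, x * y = y * x) :
    ∀ x ∈ sub F, ∀ y ∈ sub F, x * y = y * x := by
  rintro _ ⟨x, rfl⟩ _ ⟨y, rfl⟩
  have h1 : ∀ z : D, α 1 z = z := fun z => by
    rw [map_one]
    rfl
  rw [F.mul, F.mul, h1, h1, hD x y]

theorem jset_normalizer (F : FullCrossed α A) :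
    {a : A | ∃ g d, a = F.j g d} ⊆ normalizer (sub F) := by
  rintro _ ⟨g, d, rfl⟩
  refine ⟨⟨_, star_j_mul_j F g d⟩, ?_, ?_, ?_⟩
  · refine ⟨d * α g (α g⁻¹ (star d)), ?_⟩
    rw [F.star_j, F.mul, mul_inv_cancel]
  · rintro _ ⟨x, rfl⟩
    exact ⟨_, star_j_mul_mul_j F g d x⟩
  · rintro _ ⟨x, rfl⟩
    refine ⟨d * α g x * α g (α g⁻¹ (star d)), ?_⟩
    rw [F.star_j, F.mul, F.mul, mul_one, mul_inv_cancel]

end Vale.Agent.P070X
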