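import Vale.Agent.P070X.Ell
import Vale.Agent.P070X.Sub
import Vale.Agent.P070X.Char

/-!
# P070X: Naimark's problem for full crossed products, assembly (helper75)
-/

open scoped ComplexOrder InnerProductSpace

namespace Vale.Agent.P070X

open Vale.Agent.P070

universe u v

variable {D : Type u} [NonUnitalCStarAlgebra D] {G : Type v} [Group G]
variable {α : G →* (D ≃⋆ₐ[ℂ] D)} {A : Type u} [NonUnitalCStarAlgebra A]
variable {H : Type u} [NormedAddCommGroup H] [InnerProductSpace ℂ H] [CompleteSpace H]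

theorem crossed_compact (hD : ∀ x y : D, x * y = y * x) (hN : PropertyN A)
    {π : A →⋆ₙₐ[ℂ] (H →L[ℂ] H)} (hπ : IsIrred π) (F : FullCrossed α A) :
    Function.Injective π ∧ Set.range π = {T : H →L[ℂ] H | IsCompactOperator T} := by
  have hDn : Nontrivial D := by
    by_contra hcon
    rw [not_nontrivial_iff_subsingleton] at hcon
    have h0 : {a : A | ∃ g d, a = F.j g d} ⊆ {0} := by
      rintro _ ⟨g, d, rfl⟩
      rw [Subsingleton.elim d 0, map_zero]
      rfl
    have h1 := F.dense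
    have h2 : Submodule.span ℂ {a : A | ∃ g d, a = F.j g d} = ⊥ :=
      le_bot_iff.mp (Submodule.span_le.mpr (by simpa using h0))
    rw [h2] at h1
    obtain ⟨a, ha⟩ := @exists_ne A hN.1 0
    have h3 : a ∈ closure ((⊥ : Submodule ℂ A) : Set A) := h1 a
    rw [Submodule.bot_coe, isClosed_singleton.closure_eq] at h3
    exact ha h3
  obtain ⟨ω, x₀, hx₀⟩ := exists_starChar D hD
  obtain ⟨K, i1, i2, i3, C, δ, hδ, hval⟩ := ell α ω
  obtain ⟨P, hP⟩ := F.univ ⟨K, C⟩
  have hφ : vec P δ ∈ Q A := vec_mem P hδ.le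
  have hφj : ∀ g, (∀ x, ω (α g⁻¹ x) = ω x) → ∀ d, vec P δ (F.j g d) = ω d := by
    intro g hg d
    rw [vec_apply, hP]
    exact hval g hg d
  have hφ1 : ∀ d, vec P δ (F.j 1 d) = ω d := hφj 1 (fun x => by
    rw [inv_one, map_one]
    rfl)
  have hχ : IsChar (sub F) (fun a => vec P δ a) := by
    refine ⟨fun x _ y _ => map_add _ _ _, fun c x _ => map_smul _ _ _, ?_, ?_⟩
    · rintro _ ⟨d, rfl⟩ _ ⟨d', rfl⟩
      have h : F.j 1 d * F.j 1 d' = F.j 1 (d * d') := by
        rw [F.mul, mul_one, map_one]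
        rfl
      simp only [h, hφ1, map_mul]
    · exact ⟨F.j 1 x₀, ⟨x₀, rfl⟩, by simp only [hφ1]; exact hx₀⟩
  refine isotropy_state hN hπ (sub F) (sub_comm F hD) {a | ∃ g d, a = F.j g d}
    (jset_normalizer F) F.dense hχ hφ (fun d _ => rfl) ?_
  rintro _ ⟨g, d, rfl⟩ h1 h2
  simp only [star_j_mul_j, hφ1] at h1 h2 ⊢
  have h3 : ∀ x, ω (α g⁻¹ x) = ω x := by
    intro x
    have h4 := h2 (F.j 1 x) ⟨x, rfl⟩
    rw [star_j_mul_mul_j, hφ1, hφ1] at h4
    have h5 : ω (α g⁻¹ (star d * x * d)) = ω (α g⁻¹ (star d * d)) * ω (α g⁻¹ x) := by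
      rw [← map_mul, ← map_mul]
      congr 2
      rw [mul_assoc, mul_assoc, hD x d]
    rw [h5] at h4
    exact mul_left_cancel₀ h1 h4
  rw [hφj g h3 d, h3, map_mul, map_star]
  rw [← Complex.normSq_eq_norm_sq, Complex.star_def, mul_comm, Complex.mul_conj]

end Vale.Agent.P070X
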